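import Mathlib

set_option linter.unusedSectionVars false
set_option linter.unusedSimpArgs false

/-!
Counting lattice points of box slices: the product formula and monotonicity of counts.
For a matrix `A` over the integers and capacities `S`, `cnt A S b` counts the vectors `X` with
`0 ≤ X ≤ S` and `A (2 X - S) = b`.
-/

namespace Vale.Agent.Lib.P328Flow

open Finset

variable {V E : Type*} [Fintype V] [DecidableEq V] [Fintype E] [DecidableEq E]

/-- All vectors `X` with `0 ≤ X ≤ S`. -/
def box (S : E → ℕ) : Finset (E → ℕ) := Fintype.piFinset fun e => Finset.range (S e + 1)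

theorem mem_box {S X : E → ℕ} : X ∈ box S ↔ ∀ e, X e ≤ S e := by
  simp [box, Fintype.mem_piFinset, Nat.lt_succ_iff]

/-- The charge `A (2 X - S)` at `v`. -/
def chg (A : V → E → ℤ) (S X : E → ℕ) (v : V) : ℤ := ∑ e, A v e * (2 * (X e : ℤ) - S e)

/-- The vectors of the box of `S` with charge `b`. -/
def sol (A : V → E → ℤ) (S : E → ℕ) (b : V → ℤ) : Finset (E → ℕ) :=
  (box S).filter fun X => ∀ v, chg A S X v = b v

/-- The number of vectors of the box of `S` with charge `b`. -/
def cnt (A : V → E → ℤ) (S : E → ℕ) (b : V → ℤ) : ℕ := (sol A S b).card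

theorem mem_sol {A : V → E → ℤ} {S : E → ℕ} {b : V → ℤ} {X : E → ℕ} :
    X ∈ sol A S b ↔ (∀ e, X e ≤ S e) ∧ ∀ v, chg A S X v = b v := by
  simp [sol, mem_box]

/-- Integer vectors in the box `[-S, S]` in the kernel of `A`. -/
noncomputable def circ (A : V → E → ℤ) (S : E → ℕ) : Finset (E → ℤ) :=
  (Fintype.piFinset fun e => Finset.Icc (-(S e : ℤ)) (S e)).filter
    fun τ => ∀ v, ∑ e, A v e * τ e = 0

theorem mem_circ {A : V → E → ℤ} {S : E → ℕ} {τ : E → ℤ} :
    τ ∈ circ A S ↔ (∀ e, (τ e).natAbs ≤ S e) ∧ ∀ v, ∑ e, A v e * τ e = 0 := by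
  simp only [circ, mem_filter, Fintype.mem_piFinset, Finset.mem_Icc]
  constructor
  · rintro ⟨h, h'⟩
    refine ⟨fun e => ?_, h'⟩
    have := h e
    omega
  · rintro ⟨h, h'⟩
    refine ⟨fun e => ?_, h'⟩
    have := h e
    omega

/-- The capacities `S - |τ|`. -/
def cap (S : E → ℕ) (τ : E → ℤ) : E → ℕ := fun e => S e - (τ e).natAbs

theorem chg_sub (A : V → E → ℤ) (S X Y : E → ℕ) (v : V) :
    chg A S X v - chg A S Y v = 2 * ∑ e, A v e * ((X e : ℤ) - Y e) := by
  unfold chg
  rw [← Finset.sum_sub_distrib, Finset.mul_sum]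
  apply Finset.sum_congr rfl
  intro e _
  ring

/-- The product formula: `cnt² = ∑_τ cnt (S - |τ|)`, the sum over `τ` in the kernel of `A`. -/
theorem cnt_mul_self (A : V → E → ℤ) (S : E → ℕ) (b : V → ℤ) :
    cnt A S b * cnt A S b = ∑ τ ∈ circ A S, cnt A (cap S τ) b := by
  classical
  unfold cnt
  rw [← Finset.card_product]
  have hmaps : ∀ p ∈ sol A S b ×ˢ sol A S b,
      (fun e => (p.1 e : ℤ) - p.2 e) ∈ circ A S := by
    rintro ⟨X, Y⟩ hp
    rw [mem_product, mem_sol, mem_sol] at hp
    obtain ⟨⟨hX, hXb⟩, hY, hYb⟩ := hp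
    rw [mem_circ]
    refine ⟨fun e => ?_, fun v => ?_⟩
    · have h1 := hX e
      have h2 := hY e
      simp only at h1 h2 ⊢
      omega
    · have h1 := hXb v
      have h2 := hYb v
      have h3 := chg_sub A S X Y v
      simp only at h1 h2 h3 ⊢
      rw [h1, h2] at h3
      omega
  rw [Finset.card_eq_sum_card_fiberwise hmaps]
  apply Finset.sum_congr rfl
  intro τ hτ
  rw [mem_circ] at hτ
  obtain ⟨hτS, hτ0⟩ := hτ
  apply Finset.card_nbij'
    (fun (p : (E → ℕ) × (E → ℕ)) e => min (p.1 e) (p.2 e))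
    (fun Z => ((fun e => Z e + (τ e).toNat, fun e => Z e + (-τ e).toNat) : (E → ℕ) × (E → ℕ)))
  · rintro ⟨X, Y⟩ hp
    have hp' := Finset.mem_coe.mp hp
    rw [mem_filter, mem_product, mem_sol, mem_sol] at hp'
    obtain ⟨⟨⟨hX, hXb⟩, hY, hYb⟩, hτXY⟩ := hp'
    have hX : ∀ e, X e ≤ S e := hX
    have hY : ∀ e, Y e ≤ S e := hY
    have hXb : ∀ v, chg A S X v = b v := hXb
    have hYb : ∀ v, chg A S Y v = b v := hYb
    have hτe : ∀ e, τ e = (X e : ℤ) - Y e := fun e => by rw [← hτXY]
    rw [Finset.mem_coe, mem_sol]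
    refine ⟨fun e => ?_, fun v => ?_⟩
    · have h1 := hX e
      have h2 := hY e
      have h3 := hτe e
      show min (X e) (Y e) ≤ cap S τ e
      unfold cap
      omega
    · have h1 := hXb v
      have h2 := hYb v
      have h4 : 2 * chg A (cap S τ) (fun e => min (X e) (Y e)) v = chg A S X v + chg A S Y v := by
        unfold chg
        rw [← Finset.sum_add_distrib, Finset.mul_sum]
        apply Finset.sum_congr rfl
        intro e _
        have h5 := hX e
        have h6 := hY e
        have h7 := hτe e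
        have h8 : 2 * (2 * ((min (X e) (Y e) : ℕ) : ℤ) - (cap S τ e : ℤ))
            = (2 * (X e : ℤ) - S e) + (2 * (Y e : ℤ) - S e) := by
          unfold cap
          omega
        rw [mul_left_comm, h8]
        ring
      rw [h1, h2] at h4
      show chg A (cap S τ) (fun e => min (X e) (Y e)) v = b v
      omega
  · intro Z hZ
    rw [Finset.mem_coe, mem_sol] at hZ
    obtain ⟨hZc, hZb⟩ := hZ
    rw [Finset.mem_coe, mem_filter, mem_product, mem_sol, mem_sol]
    have hbd : ∀ e, Z e + (τ e).natAbs ≤ S e := fun e => by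
      have h1 := hZc e
      have h2 := hτS e
      unfold cap at h1
      omega
    have key : ∀ (σ : E → ℤ), (∀ v, ∑ e, A v e * σ e = 0) →
        (∀ e, (σ e).natAbs = (τ e).natAbs) →
        ∀ v, chg A S (fun e => Z e + (σ e).toNat) v = b v := by
      intro σ hσ hσabs v
      rw [← hZb v]
      have h0 : chg A S (fun e => Z e + (σ e).toNat) v - chg A (cap S τ) Z v
          = ∑ e, A v e * σ e := by
        unfold chg
        rw [← Finset.sum_sub_distrib]
        apply Finset.sum_congr rfl
        intro e _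
        have h1 := hbd e
        have h2 := hσabs e
        have h3 : (2 * (((Z e + (σ e).toNat : ℕ)) : ℤ) - (S e : ℤ))
            - (2 * (Z e : ℤ) - (cap S τ e : ℤ)) = σ e := by
          unfold cap
          omega
        rw [← mul_sub, h3]
      rw [hσ v] at h0
      omega
    refine ⟨⟨⟨fun e => ?_, key τ hτ0 (fun _ => rfl)⟩, ⟨fun e => ?_, key (fun e => -τ e) ?_ ?_⟩⟩, ?_⟩
    · have := hbd e
      show Z e + (τ e).toNat ≤ S e
      omega
    · have := hbd e
      show Z e + (-τ e).toNat ≤ S e
      omega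
    · intro v
      have := hτ0 v
      simp only [mul_neg, Finset.sum_neg_distrib, this, neg_zero]
    · intro e
      simp only [Int.natAbs_neg]
    · funext e
      show ((Z e + (τ e).toNat : ℕ) : ℤ) - ((Z e + (-τ e).toNat : ℕ) : ℤ) = τ e
      omega
  · rintro ⟨X, Y⟩ hp
    have hp' := Finset.mem_coe.mp hp
    rw [mem_filter] at hp'
    obtain ⟨_, hτXY⟩ := hp'
    have hτe : ∀ e, τ e = (X e : ℤ) - Y e := fun e => by rw [← hτXY]
    refine Prod.ext ?_ ?_
    · funext e
      have h3 := hτe e
      show min (X e) (Y e) + (τ e).toNat = X e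
      omega
    · funext e
      have h3 := hτe e
      show min (X e) (Y e) + (-τ e).toNat = Y e
      omega
  · intro Z hZ
    funext e
    show min (Z e + (τ e).toNat) (Z e + (-τ e).toNat) = Z e
    omega

/-- Capacities shrink strictly when `τ` is not zero. -/
theorem sum_cap_lt {S : E → ℕ} {τ : E → ℤ} (hτ : ∀ e, (τ e).natAbs ≤ S e) (h0 : τ ≠ 0) :
    ∑ e, cap S τ e < ∑ e, S e := by
  obtain ⟨e₀, he₀⟩ : ∃ e, τ e ≠ 0 := by
    by_contra hc
    push_neg at hc
    exact h0 (funext hc)
  apply Finset.sum_lt_sum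
  · intro e _
    unfold cap
    omega
  · refine ⟨e₀, Finset.mem_univ _, ?_⟩
    have := hτ e₀
    unfold cap
    omega

theorem cap_zero (S : E → ℕ) : cap S (0 : E → ℤ) = S := by
  funext e
  simp [cap]

/-- Comparison of counts: if the charge `b'` is attainable for every capacity for which the charge
`b` is attainable, then `b'` has at least as many solutions as `b`, for every capacity. -/
theorem cnt_le_of_support (A : V → E → ℤ) (b b' : V → ℤ)
    (hs : ∀ S : E → ℕ, 0 < cnt A S b → 0 < cnt A S b') (S : E → ℕ) :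
    cnt A S b ≤ cnt A S b' := by
  induction' hn : ∑ e, S e using Nat.strong_induction_on with n ih generalizing S
  have h0mem : (0 : E → ℤ) ∈ circ A S := by
    rw [mem_circ]
    simp
  have key : ∀ c : V → ℤ, cnt A S c * cnt A S c
      = cnt A S c + ∑ τ ∈ (circ A S).erase 0, cnt A (cap S τ) c := by
    intro c
    rw [cnt_mul_self, ← Finset.add_sum_erase _ _ h0mem, cap_zero]
  have hsum : ∑ τ ∈ (circ A S).erase 0, cnt A (cap S τ) b
      ≤ ∑ τ ∈ (circ A S).erase 0, cnt A (cap S τ) b' := by
    apply Finset.sum_le_sum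
    intro τ hτ
    rw [Finset.mem_erase, mem_circ] at hτ
    exact ih _ (hn ▸ sum_cap_lt hτ.2.1 hτ.1) (cap S τ) rfl
  have h1 := key b
  have h2 := key b'
  by_contra hlt
  push_neg at hlt
  have hs' := hs S
  set x := cnt A S b' with hx
  set y := cnt A S b with hy
  have hx0 : 0 < x := hs' (by omega)
  nlinarith

end Vale.Agent.Lib.P328Flow
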