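import Vale.Agent.Lib.P328Flow.Tables

set_option linter.unusedSectionVars false
set_option linter.unusedSimpArgs false
set_option linter.unusedVariables false

/-!
Event version of the squaring identity, and stochastic comparison under a sign pattern.
-/

namespace Vale.Agent.Lib.P328Flow

open Finset

variable {V E : Type*} [Fintype V] [DecidableEq V] [Fintype E] [DecidableEq E]

/-- Solutions of charge `b` lying in the event `B`. -/
noncomputable def solE (A : V → E → ℤ) (S : E → ℕ) (b : V → ℤ) (B : Set (E → ℕ)) : Finset (E → ℕ) :=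
  by classical exact (sol A S b).filter fun X => X ∈ B

/-- The number of solutions of charge `b` lying in the event `B`. -/
noncomputable def cntE (A : V → E → ℤ) (S : E → ℕ) (b : V → ℤ) (B : Set (E → ℕ)) : ℕ :=
  (solE A S b B).card

theorem mem_solE {A : V → E → ℤ} {S : E → ℕ} {b : V → ℤ} {B : Set (E → ℕ)} {X : E → ℕ} :
    X ∈ solE A S b B ↔ (∀ e, X e ≤ S e) ∧ (∀ v, chg A S X v = b v) ∧ X ∈ B := by
  classical
  simp only [solE, mem_filter, mem_sol, and_assoc]

/-- The event for the minimum `Z` of a pair with difference `τ`. -/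
def evT (B : Set (E → ℕ)) (τ : E → ℤ) : Set (E → ℕ) :=
  {Z | (fun e => Z e + (τ e).toNat) ∈ B ∧ (fun e => Z e + (-τ e).toNat) ∈ B}

/-- The squaring identity with an event. -/
theorem cntE_mul_self (A : V → E → ℤ) (S : E → ℕ) (b : V → ℤ) (B : Set (E → ℕ)) :
    cntE A S b B * cntE A S b B = ∑ τ ∈ circ A S, cntE A (cap S τ) b (evT B τ) := by
  classical
  unfold cntE
  rw [← Finset.card_product]
  have hmaps : ∀ p ∈ solE A S b B ×ˢ solE A S b B,
      (fun e => (p.1 e : ℤ) - p.2 e) ∈ circ A S := by
    rintro ⟨X, Y⟩ hp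
    rw [mem_product, mem_solE, mem_solE] at hp
    obtain ⟨⟨hX, hXb, _⟩, hY, hYb, _⟩ := hp
    rw [mem_circ]
    have hX : ∀ e, X e ≤ S e := hX
    have hY : ∀ e, Y e ≤ S e := hY
    have hXb : ∀ v, chg A S X v = b v := hXb
    have hYb : ∀ v, chg A S Y v = b v := hYb
    refine ⟨fun e => ?_, fun v => ?_⟩
    · have h1 := hX e
      have h2 := hY e
      show ((X e : ℤ) - Y e).natAbs ≤ S e
      omega
    · have h1 := hXb v
      have h2 := hYb v
      have h3 := chg_sub A S X Y v
      rw [h1, h2] at h3
      show ∑ e, A v e * ((X e : ℤ) - Y e) = 0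
      omega
  rw [Finset.card_eq_sum_card_fiberwise hmaps]
  apply Finset.sum_congr rfl
  intro τ hτ
  rw [mem_circ] at hτ
  obtain ⟨hτS, hτ0⟩ := hτ
  apply Finset.card_nbij'
    (fun (p : (E → ℕ) × (E → ℕ)) e => min (p.1 e) (p.2 e))
    (fun Z => ((fun e => Z e + (τ e).toNat, fun e => Z e + (-τ e).toNat) : (E → ℕ) × (E → ℕ)))
  · rintro ⟨X, Y⟩ hp
    have hp' := Finset.mem_coe.mp hp
    rw [mem_filter, mem_product, mem_solE, mem_solE] at hp'
    obtain ⟨⟨⟨hX, hXb, hXB⟩, hY, hYb, hYB⟩, hτXY⟩ := hp'
    have hX : ∀ e, X e ≤ S e := hX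
    have hY : ∀ e, Y e ≤ S e := hY
    have hXb : ∀ v, chg A S X v = b v := hXb
    have hYb : ∀ v, chg A S Y v = b v := hYb
    have hτe : ∀ e, τ e = (X e : ℤ) - Y e := fun e => by rw [← hτXY]
    rw [Finset.mem_coe, mem_solE]
    refine ⟨fun e => ?_, fun v => ?_, ?_, ?_⟩
    · have h1 := hX e
      have h2 := hY e
      have h3 := hτe e
      show min (X e) (Y e) ≤ cap S τ e
      unfold cap
      omega
    · have h1 := hXb v
      have h2 := hYb v
      have h4 : 2 * chg A (cap S τ) (fun e => min (X e) (Y e)) v = chg A S X v + chg A S Y v := by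
        unfold chg
        rw [← Finset.sum_add_distrib, Finset.mul_sum]
        apply Finset.sum_congr rfl
        intro e _
        have h5 := hX e
        have h6 := hY e
        have h7 := hτe e
        have h8 : 2 * (2 * ((min (X e) (Y e) : ℕ) : ℤ) - (cap S τ e : ℤ))
            = (2 * (X e : ℤ) - S e) + (2 * (Y e : ℤ) - S e) := by
          unfold cap
          omega
        rw [mul_left_comm, h8]
        ring
      rw [h1, h2] at h4
      show chg A (cap S τ) (fun e => min (X e) (Y e)) v = b v
      omega
    · have : (fun e => min (X e) (Y e) + (τ e).toNat) = X := by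
        funext e
        have h3 := hτe e
        omega
      show (fun e => min (X e) (Y e) + (τ e).toNat) ∈ B
      rw [this]
      exact hXB
    · have : (fun e => min (X e) (Y e) + (-τ e).toNat) = Y := by
        funext e
        have h3 := hτe e
        omega
      show (fun e => min (X e) (Y e) + (-τ e).toNat) ∈ B
      rw [this]
      exact hYB
  · intro Z hZ
    rw [Finset.mem_coe, mem_solE] at hZ
    obtain ⟨hZc, hZb, hZB1, hZB2⟩ := hZ
    have hZc : ∀ e, Z e ≤ cap S τ e := hZc
    have hZb : ∀ v, chg A (cap S τ) Z v = b v := hZb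
    rw [Finset.mem_coe, mem_filter, mem_product, mem_solE, mem_solE]
    have hbd : ∀ e, Z e + (τ e).natAbs ≤ S e := fun e => by
      have h1 := hZc e
      have h2 := hτS e
      unfold cap at h1
      omega
    have key : ∀ (σ : E → ℤ), (∀ v, ∑ e, A v e * σ e = 0) →
        (∀ e, (σ e).natAbs = (τ e).natAbs) →
        ∀ v, chg A S (fun e => Z e + (σ e).toNat) v = b v := by
      intro σ hσ hσabs v
      rw [← hZb v]
      have h0 : chg A S (fun e => Z e + (σ e).toNat) v - chg A (cap S τ) Z v
          = ∑ e, A v e * σ e := by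
        unfold chg
        rw [← Finset.sum_sub_distrib]
        apply Finset.sum_congr rfl
        intro e _
        have h1 := hbd e
        have h2 := hσabs e
        have h3 : (2 * (((Z e + (σ e).toNat : ℕ)) : ℤ) - (S e : ℤ))
            - (2 * (Z e : ℤ) - (cap S τ e : ℤ)) = σ e := by
          unfold cap
          omega
        rw [← mul_sub, h3]
      rw [hσ v] at h0
      omega
    refine ⟨⟨⟨fun e => ?_, key τ hτ0 (fun _ => rfl), hZB1⟩,
      ⟨fun e => ?_, key (fun e => -τ e) ?_ ?_, hZB2⟩⟩, ?_⟩
    · have := hbd e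
      show Z e + (τ e).toNat ≤ S e
      omega
    · have := hbd e
      show Z e + (-τ e).toNat ≤ S e
      omega
    · intro v
      have := hτ0 v
      simp only [mul_neg, Finset.sum_neg_distrib, this, neg_zero]
    · intro e
      simp only [Int.natAbs_neg]
    · funext e
      show ((Z e + (τ e).toNat : ℕ) : ℤ) - ((Z e + (-τ e).toNat : ℕ) : ℤ) = τ e
      omega
  · rintro ⟨X, Y⟩ hp
    have hp' := Finset.mem_coe.mp hp
    rw [mem_filter] at hp'
    obtain ⟨_, hτXY⟩ := hp'
    have hτe : ∀ e, τ e = (X e : ℤ) - Y e := fun e => by rw [← hτXY]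
    refine Prod.ext ?_ ?_
    · funext e
      have h3 := hτe e
      show min (X e) (Y e) + (τ e).toNat = X e
      omega
    · funext e
      have h3 := hτe e
      show min (X e) (Y e) + (-τ e).toNat = Y e
      omega
  · intro Z hZ
    funext e
    show min (Z e + (τ e).toNat) (Z e + (-τ e).toNat) = Z e
    omega

/-- An order on vectors given by a sign pattern: coordinates with `s e = 1` may only grow,
coordinates with `s e = -1` may only shrink, the others are free. -/
def leS (s : E → ℤ) (X Y : E → ℕ) : Prop :=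
  ∀ e, (s e = 1 → X e ≤ Y e) ∧ (s e = -1 → Y e ≤ X e)

/-- Events monotone for the order given by `s`. -/
def MonoS (s : E → ℤ) (B : Set (E → ℕ)) : Prop := ∀ X Y, leS s X Y → X ∈ B → Y ∈ B

theorem leS_add_part (s : E → ℤ) {X Y : E → ℕ} (h : leS s X Y) (W : E → ℕ) :
    leS s (fun e => X e + W e) (fun e => Y e + W e) := by
  intro e
  constructor
  · intro he
    have := (h e).1 he
    show X e + W e ≤ Y e + W e
    omega
  · intro he
    have := (h e).2 he
    show Y e + W e ≤ X e + W e
    omega

theorem MonoS.evT {s : E → ℤ} {B : Set (E → ℕ)} (hB : MonoS s B) (τ : E → ℤ) :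
    MonoS s (evT B τ) := by
  intro X Y hXY hX
  exact ⟨hB _ _ (leS_add_part s hXY _) hX.1, hB _ _ (leS_add_part s hXY _) hX.2⟩

/-- Comparison with events: if every solution of charge `b` is below, in the order given by `s`,
some solution of charge `b'` (for all capacities with the same solutions reachable), then monotone
events have at least as many solutions of charge `b'` as of charge `b`. -/
theorem cntE_le_of_support (A : V → E → ℤ) (b b' : V → ℤ) (s : E → ℤ)
    (hs : ∀ (S : E → ℕ) (X : E → ℕ), (∀ e, X e ≤ S e) → (∀ v, chg A S X v = b v) →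
      ∃ X', (∀ e, X' e ≤ S e) ∧ (∀ v, chg A S X' v = b' v) ∧ leS s X X')
    (S : E → ℕ) (B : Set (E → ℕ)) (hB : MonoS s B) :
    cntE A S b B ≤ cntE A S b' B := by
  induction' hn : ∑ e, S e using Nat.strong_induction_on with n ih generalizing S B
  have h0mem : (0 : E → ℤ) ∈ circ A S := by
    rw [mem_circ]
    simp
  have hev0 : evT B (0 : E → ℤ) = B := by
    ext Z
    simp [evT]
  have key : ∀ c : V → ℤ, cntE A S c B * cntE A S c B
      = cntE A S c B + ∑ τ ∈ (circ A S).erase 0, cntE A (cap S τ) c (evT B τ) := by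
    intro c
    rw [cntE_mul_self, ← Finset.add_sum_erase _ _ h0mem, cap_zero, hev0]
  have hsum : ∑ τ ∈ (circ A S).erase 0, cntE A (cap S τ) b (evT B τ)
      ≤ ∑ τ ∈ (circ A S).erase 0, cntE A (cap S τ) b' (evT B τ) := by
    apply Finset.sum_le_sum
    intro τ hτ
    rw [Finset.mem_erase, mem_circ] at hτ
    exact ih _ (hn ▸ sum_cap_lt hτ.2.1 hτ.1) (cap S τ) (evT B τ) (hB.evT τ) rfl
  have h1 := key b
  have h2 := key b'
  have hpos : 0 < cntE A S b B → 0 < cntE A S b' B := by
    intro hp
    obtain ⟨X, hX⟩ := Finset.card_pos.mp hp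
    rw [mem_solE] at hX
    obtain ⟨h3, h4, h5⟩ := hX
    obtain ⟨X', h6, h7, h8⟩ := hs S X h3 h4
    exact Finset.card_pos.mpr ⟨X', mem_solE.mpr ⟨h6, h7, hB _ _ h8 h5⟩⟩
  by_contra hlt
  push_neg at hlt
  set x := cntE A S b' B with hx
  set y := cntE A S b B with hy
  have hx0 : 0 < x := hpos (by omega)
  nlinarith

/-- The sign pattern of a unit change of charge from `a` to `y`. -/
def pat (tl hd : E → V) (a y : V) (f : E) : ℤ :=
  if hd f = a ∨ tl f = y then 1 else if tl f = a ∨ hd f = y then -1 else 0

/-- Reversing a path of the residual graph, with the signs of the changes at both ends. -/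
theorem path_flip_sign (tl hd : E → V) (S Y : E → ℕ) (hY : ∀ e, Y e ≤ S e) :
    ∀ (n : ℕ) (W : Finset V), (Wᶜ).card ≤ n → ∀ a y : V,
      Relation.ReflTransGen (stp tl hd S Y W) a y →
      ∃ Z : E → ℕ, (∀ e, Z e ≤ S e) ∧ (∀ e, (tl e ∈ W ∨ hd e ∈ W) → Z e = Y e) ∧
        (∀ v, chg (inc tl hd) S Z v = chg (inc tl hd) S Y v
          - 2 * (if v = a then 1 else 0) + 2 * (if v = y then 1 else 0)) ∧
        (∀ f, hd f = a → Y f ≤ Z f) ∧ (∀ f, tl f = a → Z f ≤ Y f) ∧
        (∀ f, tl f = y → Y f ≤ Z f) ∧ (∀ f, hd f = y → Z f ≤ Y f) := by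
  intro n
  induction n with
  | zero =>
    intro W hW a y h
    refine ⟨Y, hY, fun _ _ => rfl, ?_, fun _ _ => le_rfl, fun _ _ => le_rfl,
      fun _ _ => le_rfl, fun _ _ => le_rfl⟩
    have : a = y := by
      rcases Relation.ReflTransGen.cases_head h with h1 | ⟨c, h2, _⟩
      · exact h1
      · exfalso
        have h3 : a ∈ Wᶜ := by simpa using h2.1
        have h4 : (Wᶜ).card = 0 := by omega
        rw [Finset.card_eq_zero] at h4
        rw [h4] at h3
        simp at h3
    subst this
    intro v
    ring
  | succ n ih =>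
    intro W hW a y h
    by_cases hay : a = y
    · subst hay
      refine ⟨Y, hY, fun _ _ => rfl, fun v => ?_, fun _ _ => le_rfl, fun _ _ => le_rfl,
        fun _ _ => le_rfl, fun _ _ => le_rfl⟩
      ring
    obtain ⟨a', h1, h2⟩ := first_step tl hd S Y W hay h
    have haa' : a' ≠ a := by
      rintro rfl
      rcases Relation.ReflTransGen.cases_head h2 with h3 | ⟨c, h3, _⟩
      · exact hay h3
      · exact h3.1 (Finset.mem_insert_self _ _)
    have hcard : ((insert a W)ᶜ).card ≤ n := by
      have h3 : a ∈ Wᶜ := by simpa using h1.1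
      have h4 : (insert a W)ᶜ = (Wᶜ).erase a := by
        ext x
        simp [not_or]
      rw [h4, Finset.card_erase_of_mem h3]
      omega
    obtain ⟨Z1, hZ1, hZ2, hZ3, hP1, hP2, hP3, hP4⟩ := ih (insert a W) hcard a' y h2
    obtain ⟨haW, ha'W, e, he⟩ := h1
    have hagree : ∀ f, (tl f = a ∨ hd f = a) → Z1 f = Y f := by
      intro f hf
      apply hZ2
      rcases hf with hf | hf
      · exact Or.inl (by rw [hf]; exact Finset.mem_insert_self _ _)
      · exact Or.inr (by rw [hf]; exact Finset.mem_insert_self _ _)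
    rcases he with ⟨h5, h6, h7⟩ | ⟨h5, h6, h7⟩
    · have hZe : Z1 e = Y e := hagree e (Or.inl h5)
      have hup : ∀ f, f ≠ e → Function.update Z1 e (Z1 e - 1) f = Z1 f :=
        fun f hf => Function.update_of_ne hf _ _
      have hupe : Function.update Z1 e (Z1 e - 1) e = Y e - 1 := by
        rw [Function.update_self, hZe]
      refine ⟨Function.update Z1 e (Z1 e - 1), ?_, ?_, ?_, ?_, ?_, ?_, ?_⟩
      · intro f
        by_cases hf : f = e
        · subst hf
          rw [hupe]
          have := hY f
          omega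
        · rw [hup f hf]
          exact hZ1 f
      · intro f hf
        have hne : f ≠ e := by
          intro hfe
          subst hfe
          rw [h5, h6] at hf
          tauto
        rw [hup f hne]
        apply hZ2
        rcases hf with hf | hf
        · exact Or.inl (Finset.mem_insert_of_mem hf)
        · exact Or.inr (Finset.mem_insert_of_mem hf)
      · intro v
        rw [chg_update, hZ3 v]
        have h8 : ((Z1 e - 1 : ℕ) : ℤ) - Z1 e = -1 := by omega
        rw [h8]
        unfold inc
        rw [h5, h6]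
        ring
      · intro f hf
        have hne : f ≠ e := by
          rintro rfl
          rw [h6] at hf
          exact haa' hf
        rw [hup f hne, hagree f (Or.inr hf)]
      · intro f hf
        by_cases hne : f = e
        · subst hne
          rw [hupe]
          omega
        · rw [hup f hne, hagree f (Or.inl hf)]
      · intro f hf
        have hne : f ≠ e := by
          rintro rfl
          rw [h5] at hf
          exact hay hf
        rw [hup f hne]
        exact hP3 f hf
      · intro f hf
        by_cases hne : f = e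
        · subst hne
          rw [hupe]
          omega
        · rw [hup f hne]
          exact hP4 f hf
    · have hZe : Z1 e = Y e := hagree e (Or.inr h5)
      have hup : ∀ f, f ≠ e → Function.update Z1 e (Z1 e + 1) f = Z1 f :=
        fun f hf => Function.update_of_ne hf _ _
      have hupe : Function.update Z1 e (Z1 e + 1) e = Y e + 1 := by
        rw [Function.update_self, hZe]
      refine ⟨Function.update Z1 e (Z1 e + 1), ?_, ?_, ?_, ?_, ?_, ?_, ?_⟩
      · intro f
        by_cases hf : f = e
        · subst hf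
          rw [hupe]
          omega
        · rw [hup f hf]
          exact hZ1 f
      · intro f hf
        have hne : f ≠ e := by
          intro hfe
          subst hfe
          rw [h5, h6] at hf
          tauto
        rw [hup f hne]
        apply hZ2
        rcases hf with hf | hf
        · exact Or.inl (Finset.mem_insert_of_mem hf)
        · exact Or.inr (Finset.mem_insert_of_mem hf)
      · intro v
        rw [chg_update, hZ3 v]
        have h8 : ((Z1 e + 1 : ℕ) : ℤ) - Z1 e = 1 := by omega
        rw [h8]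
        unfold inc
        rw [h5, h6]
        ring
      · intro f hf
        by_cases hne : f = e
        · subst hne
          rw [hupe]
          omega
        · rw [hup f hne, hagree f (Or.inr hf)]
      · intro f hf
        have hne : f ≠ e := by
          rintro rfl
          rw [h6] at hf
          exact haa' hf
        rw [hup f hne, hagree f (Or.inl hf)]
      · intro f hf
        by_cases hne : f = e
        · subst hne
          rw [hupe]
          omega
        · rw [hup f hne]
          exact hP3 f hf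
      · intro f hf
        have hne : f ≠ e := by
          rintro rfl
          rw [h5] at hf
          exact hay hf
        rw [hup f hne]
        exact hP4 f hf

/-- A unit charge from `a` to `y` can be reversed, with coordinates changing in the direction of
the sign pattern. -/
theorem exists_flip (tl hd : E → V) (S X : E → ℕ) (hX : ∀ e, X e ≤ S e) {a y : V} (hay : a ≠ y)
    (hchg : ∀ v, chg (inc tl hd) S X v = (if v = a then 1 else 0) - (if v = y then 1 else 0)) :
    ∃ Z : E → ℕ, (∀ e, Z e ≤ S e) ∧
      (∀ v, chg (inc tl hd) S Z v = (if v = y then 1 else 0) - (if v = a then 1 else 0)) ∧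
      leS (pat tl hd a y) X Z := by
  classical
  let R : Finset V := Finset.univ.filter fun w => Relation.ReflTransGen (stp tl hd S X ∅) a w
  have hRa : a ∈ R := by simp [R, Relation.ReflTransGen.refl]
  have hclos1 : ∀ e, tl e ∈ R → hd e ∉ R → X e = 0 := by
    intro e h1 h2
    by_contra hne0
    apply h2
    have h3 : Relation.ReflTransGen (stp tl hd S X ∅) a (tl e) := by simpa [R] using h1
    have h4 : stp tl hd S X ∅ (tl e) (hd e) :=
      ⟨by simp, by simp, e, Or.inl ⟨rfl, rfl, by omega⟩⟩
    simpa [R] using h3.tail h4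
  have hclos2 : ∀ e, hd e ∈ R → tl e ∉ R → X e = S e := by
    intro e h1 h2
    by_contra hne0
    apply h2
    have h3 : Relation.ReflTransGen (stp tl hd S X ∅) a (hd e) := by simpa [R] using h1
    have h4 : stp tl hd S X ∅ (hd e) (tl e) :=
      ⟨by simp, by simp, e, Or.inr ⟨rfl, rfl, by have := hX e; omega⟩⟩
    simpa [R] using h3.tail h4
  have hyR : y ∈ R := by
    by_contra hy
    have h1 : ∑ v ∈ R, chg (inc tl hd) S X v = 1 := by
      have h2 : ∀ v ∈ R, chg (inc tl hd) S X v = if v = a then 1 else 0 := by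
        intro v hv
        rw [hchg v]
        have : v ≠ y := by
          rintro rfl
          exact hy hv
        simp [this]
      rw [Finset.sum_congr rfl h2, Finset.sum_ite_eq' R a]
      simp [hRa]
    have h2 : ∑ v ∈ R, chg (inc tl hd) S X v ≤ 0 := by
      rw [sum_chg_eq]
      apply Finset.sum_nonpos
      intro e _
      have h3 := hX e
      by_cases h4 : tl e ∈ R <;> by_cases h5 : hd e ∈ R
      · simp [h4, h5]
      · simp only [h4, h5, if_true, if_false, sub_zero, one_mul, hclos1 e h4 h5]
        push_cast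
        omega
      · simp only [h4, h5, if_true, if_false, zero_sub, neg_one_mul, hclos2 e h5 h4]
        omega
      · simp [h4, h5]
    omega
  have hreach : Relation.ReflTransGen (stp tl hd S X ∅) a y := by simpa [R] using hyR
  obtain ⟨Z, hZ1, -, hZ3, hP1, hP2, hP3, hP4⟩ := path_flip_sign tl hd S X hX _ ∅ le_rfl a y hreach
  refine ⟨Z, hZ1, fun v => ?_, fun f => ⟨fun hf => ?_, fun hf => ?_⟩⟩
  · rw [hZ3 v, hchg v]
    ring
  · unfold pat at hf
    by_cases h : hd f = a ∨ tl f = y
    · rcases h with h | h
      · exact hP1 f h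
      · exact hP3 f h
    · rw [if_neg h] at hf
      split_ifs at hf <;> omega
  · unfold pat at hf
    by_cases h : hd f = a ∨ tl f = y
    · rw [if_pos h] at hf
      omega
    · rw [if_neg h] at hf
      by_cases h' : tl f = a ∨ hd f = y
      · rcases h' with h' | h'
        · exact hP2 f h'
        · exact hP4 f h'
      · rw [if_neg h'] at hf
        omega

/-- Comparison with events for a unit change of charge. -/
theorem cntE_le_unit (tl hd : E → V) {a y : V} (hay : a ≠ y)
    (b b' : V → ℤ) (hb : ∀ v, b v = (if v = a then 1 else 0) - (if v = y then 1 else 0))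
    (hb' : ∀ v, b' v = (if v = y then 1 else 0) - (if v = a then 1 else 0))
    (S : E → ℕ) (B : Set (E → ℕ)) (hB : MonoS (pat tl hd a y) B) :
    cntE (inc tl hd) S b B ≤ cntE (inc tl hd) S b' B := by
  apply cntE_le_of_support (inc tl hd) b b' (pat tl hd a y) _ S B hB
  intro S' X hX hXb
  obtain ⟨Z, h1, h2, h3⟩ := exists_flip tl hd S' X hX hay (fun v => by rw [hXb v, hb v])
  exact ⟨Z, h1, fun v => by rw [h2 v, hb' v], h3⟩

/-- Event shifted by the forced part of a pair with sum `T` and capacities `U`. -/
def shiftE (U T : E → ℕ) (B : Set (E → ℕ)) : Set (E → ℕ) :=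
  {Z | (fun e => Z e + (T e - U e)) ∈ B}

theorem MonoS.shiftE {s : E → ℤ} {B : Set (E → ℕ)} (hB : MonoS s B) (U T : E → ℕ) :
    MonoS s (shiftE U T B) := by
  intro X Y hXY hX
  exact hB _ _ (leS_add_part s hXY _) hX

/-- The points of a level lying in an event. -/
noncomputable def levE (A : V → E → ℤ) (U : E → ℕ) (k : V → ℤ) (B : Set (E → ℕ)) :
    Finset (E → ℕ) := by
  classical exact (lev A U k).filter fun X => X ∈ B

theorem mem_levE {A : V → E → ℤ} {U : E → ℕ} {k : V → ℤ} {B : Set (E → ℕ)} {X : E → ℕ} :
    X ∈ levE A U k B ↔ (∀ e, X e ≤ U e) ∧ (∀ v, ∑ e, A v e * (X e : ℤ) = k v) ∧ X ∈ B := by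
  classical
  simp only [levE, mem_filter, mem_lev, and_assoc]

/-- The product of a count in an event and a plain count, as a sum over the sums `T`. -/
theorem levE_card_mul (A : V → E → ℤ) (U : E → ℕ) (k₁ k₂ : V → ℤ) (B : Set (E → ℕ)) :
    (levE A U k₁ B).card * (lev A U k₂).card
      = ∑ T ∈ lev A (fun e => 2 * U e) (fun v => k₁ v + k₂ v),
          cntE A (capS U T) (fun v => k₁ v - k₂ v) (shiftE U T B) := by
  classical
  rw [← Finset.card_product]
  have hmaps : ∀ p ∈ levE A U k₁ B ×ˢ lev A U k₂,
      (fun e => p.1 e + p.2 e) ∈ lev A (fun e => 2 * U e) (fun v => k₁ v + k₂ v) := by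
    rintro ⟨X, Y⟩ hp
    rw [mem_product, mem_levE, mem_lev] at hp
    obtain ⟨⟨hX, hXk, _⟩, hY, hYk⟩ := hp
    have hX : ∀ e, X e ≤ U e := hX
    have hY : ∀ e, Y e ≤ U e := hY
    have hXk : ∀ v, ∑ e, A v e * (X e : ℤ) = k₁ v := hXk
    have hYk : ∀ v, ∑ e, A v e * (Y e : ℤ) = k₂ v := hYk
    rw [mem_lev]
    refine ⟨fun e => ?_, fun v => ?_⟩
    · have := hX e
      have := hY e
      show X e + Y e ≤ 2 * U e
      omega
    · show ∑ e, A v e * ((X e + Y e : ℕ) : ℤ) = k₁ v + k₂ v
      rw [← hXk v, ← hYk v, ← Finset.sum_add_distrib]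
      apply Finset.sum_congr rfl
      intro e _
      push_cast
      ring
  rw [Finset.card_eq_sum_card_fiberwise hmaps]
  apply Finset.sum_congr rfl
  intro T hT
  rw [mem_lev] at hT
  obtain ⟨hT2, hTk⟩ := hT
  have hT2 : ∀ e, T e ≤ 2 * U e := hT2
  have hTk : ∀ v, ∑ e, A v e * (T e : ℤ) = k₁ v + k₂ v := hTk
  apply Finset.card_nbij'
    (fun (p : (E → ℕ) × (E → ℕ)) e => p.1 e - (T e - U e))
    (fun Z => ((fun e => Z e + (T e - U e), fun e => T e - (Z e + (T e - U e))) :
      (E → ℕ) × (E → ℕ)))
  · rintro ⟨X, Y⟩ hp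
    have hp' := Finset.mem_coe.mp hp
    rw [mem_filter, mem_product, mem_levE, mem_lev] at hp'
    obtain ⟨⟨⟨hX, hXk, hXB⟩, hY, hYk⟩, hXY⟩ := hp'
    have hX : ∀ e, X e ≤ U e := hX
    have hY : ∀ e, Y e ≤ U e := hY
    have hXk : ∀ v, ∑ e, A v e * (X e : ℤ) = k₁ v := hXk
    have hYk : ∀ v, ∑ e, A v e * (Y e : ℤ) = k₂ v := hYk
    have hXYe : ∀ e, X e + Y e = T e := fun e => congrFun hXY e
    rw [Finset.mem_coe, mem_solE]
    refine ⟨fun e => ?_, fun v => ?_, ?_⟩
    · have h1 := hX e
      have h2 := hY e
      have h3 := hXYe e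
      show X e - (T e - U e) ≤ capS U T e
      unfold capS
      omega
    · show chg A (capS U T) (fun e => X e - (T e - U e)) v = k₁ v - k₂ v
      rw [← hXk v, ← hYk v, ← Finset.sum_sub_distrib]
      unfold chg
      apply Finset.sum_congr rfl
      intro e _
      have h1 := hX e
      have h2 := hY e
      have h3 := hXYe e
      have h4 : 2 * ((X e - (T e - U e) : ℕ) : ℤ) - (capS U T e : ℤ) = (X e : ℤ) - Y e := by
        unfold capS
        omega
      rw [h4]
      ring
    · show (fun e => X e - (T e - U e) + (T e - U e)) ∈ B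
      have : (fun e => X e - (T e - U e) + (T e - U e)) = X := by
        funext e
        have h1 := hY e
        have h3 := hXYe e
        omega
      rw [this]
      exact hXB
  · intro Z hZ
    rw [Finset.mem_coe, mem_solE] at hZ
    obtain ⟨hZc, hZb, hZB⟩ := hZ
    have hZc : ∀ e, Z e ≤ capS U T e := hZc
    have hZb : ∀ v, chg A (capS U T) Z v = k₁ v - k₂ v := hZb
    rw [Finset.mem_coe, mem_filter, mem_product, mem_levE, mem_lev]
    have hbd : ∀ e, Z e + (T e - U e) ≤ T e ∧ Z e + (T e - U e) ≤ U e
        ∧ T e - (Z e + (T e - U e)) ≤ U e := fun e => by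
      have h1 := hZc e
      have h2 := hT2 e
      unfold capS at h1
      omega
    have hdiff : ∀ v, ∑ e, A v e * (((Z e + (T e - U e) : ℕ) : ℤ)
        - ((T e - (Z e + (T e - U e)) : ℕ) : ℤ)) = k₁ v - k₂ v := by
      intro v
      rw [← hZb v]
      unfold chg
      apply Finset.sum_congr rfl
      intro e _
      have h1 := hZc e
      have h2 := hT2 e
      have h4 : ((Z e + (T e - U e) : ℕ) : ℤ) - ((T e - (Z e + (T e - U e)) : ℕ) : ℤ)
          = 2 * (Z e : ℤ) - (capS U T e : ℤ) := by
        unfold capS at h1 ⊢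
        omega
      rw [h4]
    have hsum : ∀ v, ∑ e, A v e * ((Z e + (T e - U e) : ℕ) : ℤ)
        + ∑ e, A v e * ((T e - (Z e + (T e - U e)) : ℕ) : ℤ) = k₁ v + k₂ v := by
      intro v
      rw [← hTk v, ← Finset.sum_add_distrib]
      apply Finset.sum_congr rfl
      intro e _
      have h1 := hbd e
      have h4 : ((Z e + (T e - U e) : ℕ) : ℤ) + ((T e - (Z e + (T e - U e)) : ℕ) : ℤ)
          = (T e : ℤ) := by
        omega
      rw [← mul_add, h4]
    refine ⟨⟨⟨fun e => (hbd e).2.1, fun v => ?_, hZB⟩, fun e => (hbd e).2.2, fun v => ?_⟩, ?_⟩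
    · have h1 := hdiff v
      have h2 := hsum v
      rw [mul_sub_sum_helper] at h1
      show ∑ e, A v e * ((Z e + (T e - U e) : ℕ) : ℤ) = k₁ v
      omega
    · have h1 := hdiff v
      have h2 := hsum v
      rw [mul_sub_sum_helper] at h1
      show ∑ e, A v e * ((T e - (Z e + (T e - U e)) : ℕ) : ℤ) = k₂ v
      omega
    · funext e
      have h1 := hbd e
      show Z e + (T e - U e) + (T e - (Z e + (T e - U e))) = T e
      omega
  · rintro ⟨X, Y⟩ hp
    have hp' := Finset.mem_coe.mp hp
    rw [mem_filter, mem_product, mem_levE, mem_lev] at hp'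
    obtain ⟨⟨⟨hX, hXk, hXB⟩, hY, hYk⟩, hXY⟩ := hp'
    have hX : ∀ e, X e ≤ U e := hX
    have hY : ∀ e, Y e ≤ U e := hY
    have hXYe : ∀ e, X e + Y e = T e := fun e => congrFun hXY e
    refine Prod.ext ?_ ?_
    · funext e
      have h1 := hY e
      have h3 := hXYe e
      show X e - (T e - U e) + (T e - U e) = X e
      omega
    · funext e
      have h1 := hY e
      have h3 := hXYe e
      show T e - (X e - (T e - U e) + (T e - U e)) = Y e
      omega
  · intro Z hZ
    rw [Finset.mem_coe, mem_solE] at hZ
    funext e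
    show Z e + (T e - U e) - (T e - U e) = Z e
    omega

/-- Stochastic comparison under a unit change of margins on a directed graph with capacities:
`P_{k₂}(B) ≤ P_{k₁}(B)`, cross multiplied, for events monotone for the sign pattern of the change. -/
theorem stoch_unit (tl hd : E → V) (U : E → ℕ) (k₁ k₂ : V → ℤ) {a y : V} (hay : a ≠ y)
    (hk : ∀ v, k₂ v - k₁ v = (if v = a then 1 else 0) - (if v = y then 1 else 0))
    (B : Set (E → ℕ)) (hB : MonoS (pat tl hd a y) B) :
    (levE (inc tl hd) U k₂ B).card * (lev (inc tl hd) U k₁).card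
      ≤ (levE (inc tl hd) U k₁ B).card * (lev (inc tl hd) U k₂).card := by
  rw [levE_card_mul, levE_card_mul]
  have h : (fun v => k₂ v + k₁ v) = fun v => k₁ v + k₂ v := funext fun v => add_comm _ _
  rw [h]
  apply Finset.sum_le_sum
  intro T _
  apply cntE_le_unit tl hd hay _ _ _ _ _ _ (hB.shiftE U T)
  · intro v
    exact hk v
  · intro v
    have := hk v
    show k₁ v - k₂ v = _
    linarith

end Vale.Agent.Lib.P328Flow
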