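import Vale.Agent.Lib.P328Flow.Support

set_option linter.unusedSectionVars false
set_option linter.unusedSimpArgs false
set_option linter.unusedVariables false

/-!
Products of two counts: integer points of `0 ≤ X ≤ U`, `A X = k`, for a directed graph.
-/

namespace Vale.Agent.Lib.P328Flow

open Finset

variable {V E : Type*} [Fintype V] [DecidableEq V] [Fintype E] [DecidableEq E]

/-- Integer points of the box of `U` with `A X = k`. -/
def lev (A : V → E → ℤ) (U : E → ℕ) (k : V → ℤ) : Finset (E → ℕ) :=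
  (box U).filter fun X => ∀ v, ∑ e, A v e * (X e : ℤ) = k v

theorem mem_lev {A : V → E → ℤ} {U : E → ℕ} {k : V → ℤ} {X : E → ℕ} :
    X ∈ lev A U k ↔ (∀ e, X e ≤ U e) ∧ ∀ v, ∑ e, A v e * (X e : ℤ) = k v := by
  simp [lev, mem_box]

/-- The capacities for pairs with sum `T`. -/
def capS (U T : E → ℕ) : E → ℕ := fun e => min (T e) (2 * U e - T e)

theorem mul_sub_sum_helper {ι : Type*} [Fintype ι] (a f g : ι → ℤ) :
    ∑ e, a e * (f e - g e) = ∑ e, a e * f e - ∑ e, a e * g e := by
  rw [← Finset.sum_sub_distrib]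
  apply Finset.sum_congr rfl
  intro e _
  ring

/-- The product of two counts as a sum over the possible sums `T`, with the same range for all
pairs with the same `k₁ + k₂`. -/
theorem lev_card_mul (A : V → E → ℤ) (U : E → ℕ) (k₁ k₂ : V → ℤ) :
    (lev A U k₁).card * (lev A U k₂).card
      = ∑ T ∈ lev A (fun e => 2 * U e) (fun v => k₁ v + k₂ v),
          cnt A (capS U T) (fun v => k₁ v - k₂ v) := by
  classical
  rw [← Finset.card_product]
  have hmaps : ∀ p ∈ lev A U k₁ ×ˢ lev A U k₂,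
      (fun e => p.1 e + p.2 e) ∈ lev A (fun e => 2 * U e) (fun v => k₁ v + k₂ v) := by
    rintro ⟨X, Y⟩ hp
    rw [mem_product, mem_lev, mem_lev] at hp
    obtain ⟨⟨hX, hXk⟩, hY, hYk⟩ := hp
    have hX : ∀ e, X e ≤ U e := hX
    have hY : ∀ e, Y e ≤ U e := hY
    have hXk : ∀ v, ∑ e, A v e * (X e : ℤ) = k₁ v := hXk
    have hYk : ∀ v, ∑ e, A v e * (Y e : ℤ) = k₂ v := hYk
    rw [mem_lev]
    refine ⟨fun e => ?_, fun v => ?_⟩
    · have := hX e
      have := hY e
      show X e + Y e ≤ 2 * U e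
      omega
    · show ∑ e, A v e * ((X e + Y e : ℕ) : ℤ) = k₁ v + k₂ v
      rw [← hXk v, ← hYk v, ← Finset.sum_add_distrib]
      apply Finset.sum_congr rfl
      intro e _
      push_cast
      ring
  rw [Finset.card_eq_sum_card_fiberwise hmaps]
  apply Finset.sum_congr rfl
  intro T hT
  rw [mem_lev] at hT
  obtain ⟨hT2, hTk⟩ := hT
  have hT2 : ∀ e, T e ≤ 2 * U e := hT2
  have hTk : ∀ v, ∑ e, A v e * (T e : ℤ) = k₁ v + k₂ v := hTk
  apply Finset.card_nbij'
    (fun (p : (E → ℕ) × (E → ℕ)) e => p.1 e - (T e - U e))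
    (fun Z => ((fun e => Z e + (T e - U e), fun e => T e - (Z e + (T e - U e))) :
      (E → ℕ) × (E → ℕ)))
  · rintro ⟨X, Y⟩ hp
    have hp' := Finset.mem_coe.mp hp
    rw [mem_filter, mem_product, mem_lev, mem_lev] at hp'
    obtain ⟨⟨⟨hX, hXk⟩, hY, hYk⟩, hXY⟩ := hp'
    have hX : ∀ e, X e ≤ U e := hX
    have hY : ∀ e, Y e ≤ U e := hY
    have hXk : ∀ v, ∑ e, A v e * (X e : ℤ) = k₁ v := hXk
    have hYk : ∀ v, ∑ e, A v e * (Y e : ℤ) = k₂ v := hYk
    have hXYe : ∀ e, X e + Y e = T e := fun e => congrFun hXY e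
    rw [Finset.mem_coe, mem_sol]
    refine ⟨fun e => ?_, fun v => ?_⟩
    · have h1 := hX e
      have h2 := hY e
      have h3 := hXYe e
      show X e - (T e - U e) ≤ capS U T e
      unfold capS
      omega
    · show chg A (capS U T) (fun e => X e - (T e - U e)) v = k₁ v - k₂ v
      rw [← hXk v, ← hYk v, ← Finset.sum_sub_distrib]
      unfold chg
      apply Finset.sum_congr rfl
      intro e _
      have h1 := hX e
      have h2 := hY e
      have h3 := hXYe e
      have h4 : 2 * ((X e - (T e - U e) : ℕ) : ℤ) - (capS U T e : ℤ) = (X e : ℤ) - Y e := by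
        unfold capS
        omega
      rw [h4]
      ring
  · intro Z hZ
    rw [Finset.mem_coe, mem_sol] at hZ
    obtain ⟨hZc, hZb⟩ := hZ
    have hZc : ∀ e, Z e ≤ capS U T e := hZc
    have hZb : ∀ v, chg A (capS U T) Z v = k₁ v - k₂ v := hZb
    rw [Finset.mem_coe, mem_filter, mem_product, mem_lev, mem_lev]
    have hbd : ∀ e, Z e + (T e - U e) ≤ T e ∧ Z e + (T e - U e) ≤ U e
        ∧ T e - (Z e + (T e - U e)) ≤ U e := fun e => by
      have h1 := hZc e
      have h2 := hT2 e
      unfold capS at h1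
      omega
    have hdiff : ∀ v, ∑ e, A v e * (((Z e + (T e - U e) : ℕ) : ℤ)
        - ((T e - (Z e + (T e - U e)) : ℕ) : ℤ)) = k₁ v - k₂ v := by
      intro v
      rw [← hZb v]
      unfold chg
      apply Finset.sum_congr rfl
      intro e _
      have h1 := hZc e
      have h2 := hT2 e
      have h4 : ((Z e + (T e - U e) : ℕ) : ℤ) - ((T e - (Z e + (T e - U e)) : ℕ) : ℤ)
          = 2 * (Z e : ℤ) - (capS U T e : ℤ) := by
        unfold capS at h1 ⊢
        omega
      rw [h4]
    have hsum : ∀ v, ∑ e, A v e * ((Z e + (T e - U e) : ℕ) : ℤ)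
        + ∑ e, A v e * ((T e - (Z e + (T e - U e)) : ℕ) : ℤ) = k₁ v + k₂ v := by
      intro v
      rw [← hTk v, ← Finset.sum_add_distrib]
      apply Finset.sum_congr rfl
      intro e _
      have h1 := hbd e
      have h4 : ((Z e + (T e - U e) : ℕ) : ℤ) + ((T e - (Z e + (T e - U e)) : ℕ) : ℤ)
          = (T e : ℤ) := by
        omega
      rw [← mul_add, h4]
    refine ⟨⟨⟨fun e => (hbd e).2.1, fun v => ?_⟩, fun e => (hbd e).2.2, fun v => ?_⟩, ?_⟩
    · have h1 := hdiff v
      have h2 := hsum v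
      rw [mul_sub_sum_helper] at h1
      show ∑ e, A v e * ((Z e + (T e - U e) : ℕ) : ℤ) = k₁ v
      omega
    · have h1 := hdiff v
      have h2 := hsum v
      rw [mul_sub_sum_helper] at h1
      show ∑ e, A v e * ((T e - (Z e + (T e - U e)) : ℕ) : ℤ) = k₂ v
      omega
    · funext e
      have h1 := hbd e
      show Z e + (T e - U e) + (T e - (Z e + (T e - U e))) = T e
      omega
  · rintro ⟨X, Y⟩ hp
    have hp' := Finset.mem_coe.mp hp
    rw [mem_filter, mem_product, mem_lev, mem_lev] at hp'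
    obtain ⟨⟨⟨hX, hXk⟩, hY, hYk⟩, hXY⟩ := hp'
    have hX : ∀ e, X e ≤ U e := hX
    have hY : ∀ e, Y e ≤ U e := hY
    have hXYe : ∀ e, X e + Y e = T e := fun e => congrFun hXY e
    refine Prod.ext ?_ ?_
    · funext e
      have h1 := hY e
      have h3 := hXYe e
      show X e - (T e - U e) + (T e - U e) = X e
      omega
    · funext e
      have h1 := hY e
      have h3 := hXYe e
      show T e - (X e - (T e - U e) + (T e - U e)) = Y e
      omega
  · intro Z hZ
    rw [Finset.mem_coe, mem_sol] at hZ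
    funext e
    show Z e + (T e - U e) - (T e - U e) = Z e
    omega

/-- The cut condition passes to the count of charges on every capacity. -/
theorem cnt_le_of_cut (tl hd : E → V) (b b' : V → ℤ)
    (hpar : ∀ v, Even (b' v - b v))
    (hcut : ∀ R : Finset V, |∑ v ∈ R, b' v| ≤ |∑ v ∈ R, b v|) (S : E → ℕ) :
    cnt (inc tl hd) S b ≤ cnt (inc tl hd) S b' := by
  apply cnt_le_of_support
  intro S' hS'
  obtain ⟨X, hX⟩ := Finset.card_pos.mp hS'
  rw [mem_sol] at hX
  obtain ⟨hX1, hX2⟩ := hX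
  obtain ⟨Z, hZ1, hZ2⟩ := attain_of_cut tl hd S' X hX1 b'
    (fun v => by rw [hX2 v]; exact hpar v)
    (fun R => by
      have h : ∑ v ∈ R, chg (inc tl hd) S' X v = ∑ v ∈ R, b v :=
        Finset.sum_congr rfl (fun v _ => hX2 v)
      rw [h]
      exact hcut R)
  exact Finset.card_pos.mpr ⟨Z, mem_sol.mpr ⟨hZ1, hZ2⟩⟩

/-- Comparison of products of counts for a directed graph, with capacities `U`: if
`k₁ + k₂ = k₁' + k₂'` and `k₁' - k₂'` is dominated on all cuts by `k₁ - k₂`, then the product for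
the primed pair is at least the other. -/
theorem lev_mul_le (tl hd : E → V) (U : E → ℕ) (k₁ k₂ k₁' k₂' : V → ℤ)
    (hk : ∀ v, k₁ v + k₂ v = k₁' v + k₂' v)
    (hcut : ∀ R : Finset V, |∑ v ∈ R, (k₁' v - k₂' v)| ≤ |∑ v ∈ R, (k₁ v - k₂ v)|) :
    (lev (inc tl hd) U k₁).card * (lev (inc tl hd) U k₂).card
      ≤ (lev (inc tl hd) U k₁').card * (lev (inc tl hd) U k₂').card := by
  rw [lev_card_mul, lev_card_mul]
  have h : (fun v => k₁ v + k₂ v) = fun v => k₁' v + k₂' v := funext hk
  rw [h]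
  apply Finset.sum_le_sum
  intro T _
  apply cnt_le_of_cut tl hd _ _ _ hcut
  intro v
  refine ⟨k₁' v - k₁ v, ?_⟩
  have := hk v
  linarith

end Vale.Agent.Lib.P328Flow
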