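import Vale.Agent.Lib.P328Flow.Events

set_option linter.unusedSectionVars false
set_option linter.unusedSimpArgs false
set_option linter.unusedVariables false

/-!
Stochastic comparisons for contingency tables with capacities.
-/

namespace Vale.Agent.Lib.P328Flow

open Finset

variable {ι κ : Type*} [Fintype ι] [DecidableEq ι] [Fintype κ] [DecidableEq κ]

/-- The charge of the margins after removing `t` from the row `s` and the column `j`. -/
def kPin (r : ι → ℕ) (c : κ → ℕ) (s : ι) (j : κ) (t : ℕ) : ι ⊕ κ → ℤ :=
  Sum.elim (fun i => (r i : ℤ) - (if i = s then (t : ℤ) else 0))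
    (fun j' => -((c j' : ℤ) - (if j' = j then (t : ℤ) else 0)))

/-- Capacities with the cell `(s, j)` switched off. -/
def capOff (U : ι → κ → ℕ) (s : ι) (j : κ) : ι × κ → ℕ :=
  fun e => if e = (s, j) then 0 else U e.1 e.2

/-- The count of tables with a pinned cell in an event. -/
theorem ncard_pin (U : ι → κ → ℕ) (r : ι → ℕ) (c : κ → ℕ) (s : ι) (j : κ) (t : ℕ)
    (ht : t ≤ U s j) (B : Set (ι → κ → ℕ))
    (hB : ∀ x y : ι → κ → ℕ, (∀ i j', (i, j') ≠ (s, j) → x i j' = y i j') → x ∈ B → y ∈ B) :
    Set.ncard {x : ι → κ → ℕ | (∀ i j', x i j' ≤ U i j') ∧ (∀ i, ∑ j', x i j' = r i) ∧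
        (∀ j', ∑ i, x i j' = c j') ∧ x s j = t ∧ x ∈ B}
      = (levE (inc (tlT (ι := ι) (κ := κ)) hdT) (capOff U s j) (kPin r c s j t)
          {X | (fun i j' => X (i, j')) ∈ B}).card := by
  classical
  rw [← Set.ncard_coe_finset]
  apply Set.ncard_congr (fun x _ => fun e => if e = (s, j) then 0 else x e.1 e.2)
  · rintro x ⟨h1, h2, h3, h4, h5⟩
    rw [Finset.mem_coe, mem_levE]
    refine ⟨fun e => ?_, ?_, ?_⟩
    · unfold capOff
      split_ifs
      · exact le_rfl
      · exact h1 _ _
    · rintro (i | j')
      · rw [sum_inc_inl]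
        simp only [kPin, Sum.elim_inl]
        rw [← h2 i, Nat.cast_sum]
        have h6 : ∑ x_1, (x i x_1 : ℤ)
            = ∑ x_1, (((if (i, x_1) = (s, j) then 0 else x i x_1 : ℕ)) : ℤ)
              + (if i = s then (t : ℤ) else 0) := by
          by_cases his : i = s
          · subst his
            rw [if_pos rfl, ← Finset.add_sum_erase _ _ (Finset.mem_univ j),
              ← Finset.add_sum_erase (a := j) _ (fun x_1 => (((if (i, x_1) = (i, j) then 0 else x i x_1 : ℕ)) : ℤ)) (Finset.mem_univ j)]
            have h7 : ∑ x_1 ∈ univ.erase j, (((if (i, x_1) = (i, j) then 0 else x i x_1 : ℕ)) : ℤ)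
                = ∑ x_1 ∈ univ.erase j, (x i x_1 : ℤ) := by
              apply Finset.sum_congr rfl
              intro y hy
              have : y ≠ j := Finset.ne_of_mem_erase hy
              simp [this]
            rw [h7, h4]
            simp
            ring
          · rw [if_neg his, add_zero]
            apply Finset.sum_congr rfl
            intro y _
            have : (i, y) ≠ (s, j) := fun h => his (Prod.mk.inj h).1
            simp [this]
        rw [h6]
        ring
      · rw [sum_inc_inr]
        simp only [kPin, Sum.elim_inr]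
        rw [← h3 j', Nat.cast_sum]
        have h6 : ∑ x_1, (x x_1 j' : ℤ)
            = ∑ x_1, (((if (x_1, j') = (s, j) then 0 else x x_1 j' : ℕ)) : ℤ)
              + (if j' = j then (t : ℤ) else 0) := by
          by_cases hjj : j' = j
          · subst hjj
            rw [if_pos rfl, ← Finset.add_sum_erase _ _ (Finset.mem_univ s),
              ← Finset.add_sum_erase (a := s) _ (fun x_1 => (((if (x_1, j') = (s, j') then 0 else x x_1 j' : ℕ)) : ℤ)) (Finset.mem_univ s)]
            have h7 : ∑ x_1 ∈ univ.erase s, (((if (x_1, j') = (s, j') then 0 else x x_1 j' : ℕ)) : ℤ)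
                = ∑ x_1 ∈ univ.erase s, (x x_1 j' : ℤ) := by
              apply Finset.sum_congr rfl
              intro y hy
              have : y ≠ s := Finset.ne_of_mem_erase hy
              simp [this]
            rw [h7, h4]
            simp
            ring
          · rw [if_neg hjj, add_zero]
            apply Finset.sum_congr rfl
            intro y _
            have : (y, j') ≠ (s, j) := fun h => hjj (Prod.mk.inj h).2
            simp [this]
        rw [h6]
        ring
    · show (fun i j' => if (i, j') = (s, j) then 0 else x i j') ∈ B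
      refine hB x _ ?_ h5
      intro i j' hij
      simp [hij]
  · rintro x y ⟨-, -, -, h4, -⟩ ⟨-, -, -, h4', -⟩ h
    funext i j'
    by_cases hij : (i, j') = (s, j)
    · obtain ⟨rfl, rfl⟩ := Prod.mk.inj hij
      rw [h4, h4']
    · have := congrFun h (i, j')
      simpa [hij] using this
  · intro X hX
    rw [Finset.mem_coe, mem_levE] at hX
    obtain ⟨h1, h2, h3⟩ := hX
    have hXsj : X (s, j) = 0 := by
      have := h1 (s, j)
      simpa [capOff] using this
    refine ⟨fun i j' => if (i, j') = (s, j) then t else X (i, j'), ⟨?_, ?_, ?_, ?_, ?_⟩, ?_⟩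
    · intro i j'
      by_cases hij : (i, j') = (s, j)
      · obtain ⟨rfl, rfl⟩ := Prod.mk.inj hij
        simpa using ht
      · simp only [hij, if_false]
        have := h1 (i, j')
        simpa [capOff, hij] using this
    · intro i
      have h5 := h2 (Sum.inl i)
      rw [sum_inc_inl] at h5
      simp only [kPin, Sum.elim_inl] at h5
      have h6 : ∑ j', (((if (i, j') = (s, j) then t else X (i, j') : ℕ)) : ℤ)
          = ∑ j', (X (i, j') : ℤ) + (if i = s then (t : ℤ) else 0) := by
        by_cases his : i = s
        · subst his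
          rw [if_pos rfl, ← Finset.add_sum_erase _ _ (Finset.mem_univ j),
            ← Finset.add_sum_erase (a := j) _ (fun j' => (X (i, j') : ℤ)) (Finset.mem_univ j)]
          have h7 : ∑ y ∈ univ.erase j, (((if (i, y) = (i, j) then t else X (i, y) : ℕ)) : ℤ)
              = ∑ y ∈ univ.erase j, (X (i, y) : ℤ) := by
            apply Finset.sum_congr rfl
            intro y hy
            have : y ≠ j := Finset.ne_of_mem_erase hy
            simp [this]
          rw [h7, hXsj]
          simp
          ring
        · rw [if_neg his, add_zero]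
          apply Finset.sum_congr rfl
          intro y _
          have : (i, y) ≠ (s, j) := fun h => his (Prod.mk.inj h).1
          simp [this]
      have h8 : ((∑ j', (if (i, j') = (s, j) then t else X (i, j')) : ℕ) : ℤ) = r i := by
        push_cast at h6 ⊢
        rw [h6, h5]
        ring
      exact_mod_cast h8
    · intro j'
      have h5 := h2 (Sum.inr j')
      rw [sum_inc_inr] at h5
      simp only [kPin, Sum.elim_inr] at h5
      have h6 : ∑ i, (((if (i, j') = (s, j) then t else X (i, j') : ℕ)) : ℤ)
          = ∑ i, (X (i, j') : ℤ) + (if j' = j then (t : ℤ) else 0) := by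
        by_cases hjj : j' = j
        · subst hjj
          rw [if_pos rfl, ← Finset.add_sum_erase _ _ (Finset.mem_univ s),
            ← Finset.add_sum_erase (a := s) _ (fun i => (X (i, j') : ℤ)) (Finset.mem_univ s)]
          have h7 : ∑ y ∈ univ.erase s, (((if (y, j') = (s, j') then t else X (y, j') : ℕ)) : ℤ)
              = ∑ y ∈ univ.erase s, (X (y, j') : ℤ) := by
            apply Finset.sum_congr rfl
            intro y hy
            have : y ≠ s := Finset.ne_of_mem_erase hy
            simp [this]
          rw [h7, hXsj]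
          simp
          ring
        · rw [if_neg hjj, add_zero]
          apply Finset.sum_congr rfl
          intro y _
          have : (y, j') ≠ (s, j) := fun h => hjj (Prod.mk.inj h).2
          simp [this]
      have h8 : ((∑ i, (if (i, j') = (s, j) then t else X (i, j')) : ℕ) : ℤ) = c j' := by
        push_cast at h6 ⊢
        have h9 : ∑ i, (X (i, j') : ℤ) = (c j' : ℤ) - (if j' = j then (t : ℤ) else 0) := by
          linarith
        rw [h6, h9]
        ring
      exact_mod_cast h8
    · simp
    · have h4 : (fun i j' => X (i, j')) ∈ B := h3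
      refine hB _ _ ?_ h4
      intro i j' hij
      simp [hij]
    · funext e
      by_cases he : e = (s, j)
      · subst he
        simp [hXsj]
      · have h7 : (e.1, e.2) ≠ (s, j) := by
          simpa using he
        simp [he, h7]

theorem levE_univ_card (A : ι ⊕ κ → ι × κ → ℤ) (U : ι × κ → ℕ) (k : ι ⊕ κ → ℤ) :
    (levE A U k {X | True}).card = (lev A U k).card := by
  classical
  congr 1
  ext X
  simp [mem_levE, mem_lev]

/-- Stochastic covering for one cell: under the uniform law on tables with capacities, an event
increasing in the other cells of the row and of the column of the cell `(s, j)` (and depending on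
nothing else) becomes less likely when the cell grows by one: the product formulation. -/
theorem pin_covering (U : ι → κ → ℕ) (r : ι → ℕ) (c : κ → ℕ) (s : ι) (j : κ) (t : ℕ)
    (B : Set (ι → κ → ℕ))
    (hB : ∀ x y : ι → κ → ℕ, (∀ i, i ≠ s → x i j ≤ y i j) → (∀ j', j' ≠ j → x s j' ≤ y s j') →
      x ∈ B → y ∈ B) :
    Set.ncard {x : ι → κ → ℕ | (∀ i j', x i j' ≤ U i j') ∧ (∀ i, ∑ j', x i j' = r i) ∧
        (∀ j', ∑ i, x i j' = c j') ∧ x s j = t + 1 ∧ x ∈ B}
      * Set.ncard {x : ι → κ → ℕ | (∀ i j', x i j' ≤ U i j') ∧ (∀ i, ∑ j', x i j' = r i) ∧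
        (∀ j', ∑ i, x i j' = c j') ∧ x s j = t}
    ≤ Set.ncard {x : ι → κ → ℕ | (∀ i j', x i j' ≤ U i j') ∧ (∀ i, ∑ j', x i j' = r i) ∧
        (∀ j', ∑ i, x i j' = c j') ∧ x s j = t ∧ x ∈ B}
      * Set.ncard {x : ι → κ → ℕ | (∀ i j', x i j' ≤ U i j') ∧ (∀ i, ∑ j', x i j' = r i) ∧
        (∀ j', ∑ i, x i j' = c j') ∧ x s j = t + 1} := by
  classical
  by_cases ht : t + 1 ≤ U s j
  · have hB' : ∀ x y : ι → κ → ℕ, (∀ i j', (i, j') ≠ (s, j) → x i j' = y i j') → x ∈ B → y ∈ B := by
      intro x y h1
      apply hB x y
      · intro i hi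
        rw [h1 i j (fun h => hi (Prod.mk.inj h).1)]
      · intro j' hj'
        rw [h1 s j' (fun h => hj' (Prod.mk.inj h).2)]
    have hplain : ∀ t' : ℕ, t' ≤ U s j →
        Set.ncard {x : ι → κ → ℕ | (∀ i j', x i j' ≤ U i j') ∧ (∀ i, ∑ j', x i j' = r i) ∧
          (∀ j', ∑ i, x i j' = c j') ∧ x s j = t'}
        = (lev (inc (tlT (ι := ι) (κ := κ)) hdT) (capOff U s j) (kPin r c s j t')).card := by
      intro t' ht'
      have := ncard_pin U r c s j t' ht' Set.univ (fun _ _ _ _ => trivial)
      simp only [Set.mem_univ, and_true] at this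
      rw [this]
      exact levE_univ_card _ _ _
    rw [hplain t (by omega), hplain (t + 1) ht, ncard_pin U r c s j t (by omega) B hB',
      ncard_pin U r c s j (t + 1) ht B hB']
    apply stoch_unit tlT hdT (capOff U s j) (kPin r c s j t) (kPin r c s j (t + 1))
      (a := Sum.inr j) (y := Sum.inl s) (by simp)
    · rintro (i | j')
      · simp only [kPin, Sum.elim_inl]
        by_cases h : i = s
        · subst h
          simp
        · simp [h]
      · simp only [kPin, Sum.elim_inr]
        by_cases h : j' = j
        · subst h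
          simp
        · simp [h]
    · intro X Y hXY hX
      refine hB _ _ ?_ ?_ hX
      · intro i hi
        have := (hXY (i, j)).1 (by simp [pat, hdT])
        exact this
      · intro j' hj'
        have := (hXY (s, j')).1 (by simp [pat, tlT])
        exact this
  · have : {x : ι → κ → ℕ | (∀ i j', x i j' ≤ U i j') ∧ (∀ i, ∑ j', x i j' = r i) ∧
        (∀ j', ∑ i, x i j' = c j') ∧ x s j = t + 1 ∧ x ∈ B} = ∅ := by
      ext x
      simp only [Set.mem_setOf_eq, Set.mem_empty_iff_false, iff_false]
      rintro ⟨h1, -, -, h4, -⟩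
      have := h1 s j
      omega
    rw [this]
    simp

end Vale.Agent.Lib.P328Flow
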