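import Vale.Agent.Lib.P328Flow.Basic

set_option linter.unusedSectionVars false
set_option linter.unusedSimpArgs false
set_option linter.unusedVariables false

/-!
Attainable charges on a directed graph: the cut condition (an argument with augmenting paths).
-/

namespace Vale.Agent.Lib.P328Flow

open Finset

variable {V E : Type*} [Fintype V] [DecidableEq V] [Fintype E] [DecidableEq E]

/-- The incidence matrix of a directed graph. -/
def inc (tl hd : E → V) (v : V) (e : E) : ℤ :=
  (if v = tl e then 1 else 0) - (if v = hd e then 1 else 0)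

/-- One step of the residual graph of `Y` inside the complement of `W`. -/
def stp (tl hd : E → V) (S Y : E → ℕ) (W : Finset V) (x y : V) : Prop :=
  x ∉ W ∧ y ∉ W ∧ ∃ e, (tl e = x ∧ hd e = y ∧ 0 < Y e) ∨ (hd e = x ∧ tl e = y ∧ Y e < S e)

theorem chg_update (A : V → E → ℤ) (S Z : E → ℕ) (e : E) (n : ℕ) (v : V) :
    chg A S (Function.update Z e n) v = chg A S Z v + 2 * A v e * ((n : ℤ) - Z e) := by
  unfold chg
  have h : ∑ x, A v x * (2 * ((Function.update Z e n x : ℕ) : ℤ) - S x)
      - ∑ x, A v x * (2 * (Z x : ℤ) - S x) = 2 * A v e * ((n : ℤ) - Z e) := by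
    rw [← Finset.sum_sub_distrib]
    rw [Finset.sum_eq_single e]
    · simp only [Function.update_self]
      ring
    · intro x _ hx
      simp only [Function.update_of_ne hx]
      ring
    · intro h
      exact absurd (Finset.mem_univ e) h
  linarith

/-- The first step of a path out of `a` whose remainder avoids `a`. -/
theorem first_step (tl hd : E → V) (S Y : E → ℕ) (W : Finset V) {a y : V} (hay : a ≠ y)
    (h : Relation.ReflTransGen (stp tl hd S Y W) a y) :
    ∃ a', stp tl hd S Y W a a' ∧ Relation.ReflTransGen (stp tl hd S Y (insert a W)) a' y := by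
  have noA : ¬ Relation.ReflTransGen (stp tl hd S Y (insert a W)) a y := by
    intro hc
    rcases Relation.ReflTransGen.cases_head hc with h1 | ⟨c, h2, _⟩
    · exact hay h1
    · exact h2.1 (Finset.mem_insert_self _ _)
  have claim : ∀ x, Relation.ReflTransGen (stp tl hd S Y W) x y →
      Relation.ReflTransGen (stp tl hd S Y (insert a W)) x y ∨
        ∃ a', stp tl hd S Y W a a' ∧ Relation.ReflTransGen (stp tl hd S Y (insert a W)) a' y := by
    intro x hx
    induction hx using Relation.ReflTransGen.head_induction_on with
    | refl => exact Or.inl Relation.ReflTransGen.refl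
    | @head x1 c hxc hcy ih =>
      rcases ih with ih | ih
      · by_cases hx1 : x1 = a
        · subst hx1
          exact Or.inr ⟨c, hxc, ih⟩
        · left
          refine Relation.ReflTransGen.head ?_ ih
          obtain ⟨h1, h2, h3⟩ := hxc
          refine ⟨?_, ?_, h3⟩
          · simp [hx1, h1]
          · intro hm
            rw [Finset.mem_insert] at hm
            rcases hm with hm | hm
            · subst hm
              exact noA ih
            · exact h2 hm
      · exact Or.inr ih
  rcases claim a h with h1 | h1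
  · exact absurd h1 noA
  · exact h1

/-- Reversing a path of the residual graph. -/
theorem path_flip (tl hd : E → V) (S Y : E → ℕ) (hY : ∀ e, Y e ≤ S e) :
    ∀ (n : ℕ) (W : Finset V), (Wᶜ).card ≤ n → ∀ a y : V,
      Relation.ReflTransGen (stp tl hd S Y W) a y →
      ∃ Z : E → ℕ, (∀ e, Z e ≤ S e) ∧ (∀ e, (tl e ∈ W ∨ hd e ∈ W) → Z e = Y e) ∧
        ∀ v, chg (inc tl hd) S Z v = chg (inc tl hd) S Y v
          - 2 * (if v = a then 1 else 0) + 2 * (if v = y then 1 else 0) := by
  intro n
  induction n with
  | zero =>
    intro W hW a y h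
    refine ⟨Y, hY, fun _ _ => rfl, ?_⟩
    have : a = y := by
      rcases Relation.ReflTransGen.cases_head h with h1 | ⟨c, h2, _⟩
      · exact h1
      · exfalso
        have h3 : a ∈ Wᶜ := by simpa using h2.1
        have h4 : (Wᶜ).card = 0 := by omega
        rw [Finset.card_eq_zero] at h4
        rw [h4] at h3
        simp at h3
    subst this
    intro v
    ring
  | succ n ih =>
    intro W hW a y h
    by_cases hay : a = y
    · subst hay
      refine ⟨Y, hY, fun _ _ => rfl, fun v => ?_⟩
      ring
    obtain ⟨a', h1, h2⟩ := first_step tl hd S Y W hay h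
    have hcard : ((insert a W)ᶜ).card ≤ n := by
      have h3 : a ∈ Wᶜ := by simpa using h1.1
      have h4 : (insert a W)ᶜ = (Wᶜ).erase a := by
        ext x
        simp [not_or]
      rw [h4, Finset.card_erase_of_mem h3]
      omega
    obtain ⟨Z1, hZ1, hZ2, hZ3⟩ := ih (insert a W) hcard a' y h2
    obtain ⟨haW, ha'W, e, he⟩ := h1
    rcases he with ⟨h5, h6, h7⟩ | ⟨h5, h6, h7⟩
    · have hZe : Z1 e = Y e := hZ2 e (Or.inl (by rw [h5]; exact Finset.mem_insert_self _ _))
      refine ⟨Function.update Z1 e (Z1 e - 1), ?_, ?_, ?_⟩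
      · intro f
        by_cases hf : f = e
        · subst hf
          simp only [Function.update_self]
          have := hZ1 f
          omega
        · simp only [Function.update_of_ne hf]
          exact hZ1 f
      · intro f hf
        have hne : f ≠ e := by
          intro hfe
          subst hfe
          rw [h5, h6] at hf
          tauto
        simp only [Function.update_of_ne hne]
        apply hZ2
        rcases hf with hf | hf
        · exact Or.inl (Finset.mem_insert_of_mem hf)
        · exact Or.inr (Finset.mem_insert_of_mem hf)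
      · intro v
        rw [chg_update, hZ3 v]
        have h8 : ((Z1 e - 1 : ℕ) : ℤ) - Z1 e = -1 := by omega
        rw [h8]
        unfold inc
        rw [h5, h6]
        ring
    · have hZe : Z1 e = Y e := hZ2 e (Or.inr (by rw [h5]; exact Finset.mem_insert_self _ _))
      refine ⟨Function.update Z1 e (Z1 e + 1), ?_, ?_, ?_⟩
      · intro f
        by_cases hf : f = e
        · subst hf
          simp only [Function.update_self]
          omega
        · simp only [Function.update_of_ne hf]
          exact hZ1 f
      · intro f hf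
        have hne : f ≠ e := by
          intro hfe
          subst hfe
          rw [h5, h6] at hf
          tauto
        simp only [Function.update_of_ne hne]
        apply hZ2
        rcases hf with hf | hf
        · exact Or.inl (Finset.mem_insert_of_mem hf)
        · exact Or.inr (Finset.mem_insert_of_mem hf)
      · intro v
        rw [chg_update, hZ3 v]
        have h8 : ((Z1 e + 1 : ℕ) : ℤ) - Z1 e = 1 := by omega
        rw [h8]
        unfold inc
        rw [h5, h6]
        ring

/-- Sum of the charge over a set of vertices, expressed edge by edge. -/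
theorem sum_chg_eq (tl hd : E → V) (S X : E → ℕ) (R : Finset V) :
    ∑ v ∈ R, chg (inc tl hd) S X v
      = ∑ e, ((if tl e ∈ R then 1 else 0) - (if hd e ∈ R then 1 else 0)) *
          (2 * (X e : ℤ) - S e) := by
  unfold chg
  rw [Finset.sum_comm]
  apply Finset.sum_congr rfl
  intro e _
  rw [← Finset.sum_mul]
  congr 1
  unfold inc
  rw [Finset.sum_sub_distrib]
  congr 1
  · rw [Finset.sum_ite_eq']
  · rw [Finset.sum_ite_eq']

/-- A charge satisfying the cut condition relative to an attainable charge is attainable. -/
theorem attain_of_cut (tl hd : E → V) (S X : E → ℕ) (hX : ∀ e, X e ≤ S e) (b' : V → ℤ)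
    (hpar : ∀ v, Even (b' v - chg (inc tl hd) S X v))
    (hcut : ∀ R : Finset V, |∑ v ∈ R, b' v| ≤ |∑ v ∈ R, chg (inc tl hd) S X v|) :
    ∃ Z : E → ℕ, (∀ e, Z e ≤ S e) ∧ ∀ v, chg (inc tl hd) S Z v = b' v := by
  classical
  let Φ : (E → ℕ) → ℕ := fun Y => ∑ v, (chg (inc tl hd) S Y v - b' v).natAbs
  have hne : (box S).Nonempty := ⟨X, mem_box.mpr hX⟩
  obtain ⟨Y, hYbox, hYmin⟩ := Finset.exists_min_image (box S) Φ hne
  have hY : ∀ e, Y e ≤ S e := mem_box.mp hYbox
  refine ⟨Y, hY, ?_⟩
  by_contra hcon
  push_neg at hcon
  obtain ⟨v₀, hv₀⟩ := hcon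
  -- total charge vanishes
  have hsum0 : ∀ Z : E → ℕ, ∑ v, chg (inc tl hd) S Z v = 0 := by
    intro Z
    have := sum_chg_eq tl hd S Z Finset.univ
    simp only [Finset.mem_univ, if_true, sub_self, zero_mul, Finset.sum_const_zero] at this
    exact this
  have hb'0 : ∑ v, b' v = 0 := by
    have := hcut Finset.univ
    rw [hsum0 X, abs_zero] at this
    exact abs_eq_zero.mp (le_antisymm this (abs_nonneg _))
  have hdsum : ∑ v, (chg (inc tl hd) S Y v - b' v) = 0 := by
    rw [Finset.sum_sub_distrib, hsum0, hb'0, sub_zero]
  -- a vertex with a surplus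
  obtain ⟨a, ha⟩ : ∃ a, b' a < chg (inc tl hd) S Y a := by
    by_contra hc
    push_neg at hc
    have h1 : ∑ v, (chg (inc tl hd) S Y v - b' v) < 0 := by
      apply Finset.sum_neg'
      · intro v _
        have := hc v
        omega
      · refine ⟨v₀, Finset.mem_univ _, ?_⟩
        have := hc v₀
        omega
    omega
  -- parity
  have hpar' : ∀ v, Even (chg (inc tl hd) S Y v - b' v) := by
    intro v
    have h1 := chg_sub (inc tl hd) S Y X v
    have h2 := hpar v
    obtain ⟨k, hk⟩ := h2
    refine ⟨∑ e, inc tl hd v e * ((Y e : ℤ) - X e) - k, ?_⟩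
    have : chg (inc tl hd) S Y v - b' v = (chg (inc tl hd) S Y v - chg (inc tl hd) S X v) - (b' v - chg (inc tl hd) S X v) := by ring
    rw [this, h1, hk]
    ring
  -- reachable set
  let R : Finset V := Finset.univ.filter fun y => Relation.ReflTransGen (stp tl hd S Y ∅) a y
  have hRa : a ∈ R := by simp [R, Relation.ReflTransGen.refl]
  have hRnonneg : ∀ y ∈ R, b' y ≤ chg (inc tl hd) S Y y := by
    intro y hy
    by_contra hlt
    push_neg at hlt
    have hreach : Relation.ReflTransGen (stp tl hd S Y ∅) a y := by
      simpa [R] using hy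
    obtain ⟨Z, hZ1, -, hZ3⟩ := path_flip tl hd S Y hY _ ∅ le_rfl a y hreach
    have hay : a ≠ y := by
      rintro rfl
      omega
    have hlt2 : Φ Z < Φ Y := by
      apply Finset.sum_lt_sum
      · intro v _
        rw [hZ3 v]
        obtain ⟨k, hk⟩ := hpar' v
        by_cases hva : v = a
        · subst hva
          have hv1 : v ≠ y := hay
          simp only [if_true, if_neg hv1]
          have h1 := hpar' v
          omega
        · by_cases hvy : v = y
          · subst hvy
            simp only [if_neg hva, if_true]
            omega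
          · simp only [if_neg hva, if_neg hvy]
            apply le_of_eq
            congr 1
            ring
      · refine ⟨a, Finset.mem_univ _, ?_⟩
        rw [hZ3 a]
        have hv1 : a ≠ y := hay
        simp only [if_true, if_neg hv1]
        obtain ⟨k, hk⟩ := hpar' a
        omega
    have := hYmin Z (mem_box.mpr hZ1)
    omega
  -- closure of `R`
  have hclos1 : ∀ e, tl e ∈ R → hd e ∉ R → Y e = 0 := by
    intro e h1 h2
    by_contra hne0
    apply h2
    have h3 : Relation.ReflTransGen (stp tl hd S Y ∅) a (tl e) := by simpa [R] using h1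
    have h4 : stp tl hd S Y ∅ (tl e) (hd e) :=
      ⟨by simp, by simp, e, Or.inl ⟨rfl, rfl, by omega⟩⟩
    simpa [R] using h3.tail h4
  have hclos2 : ∀ e, hd e ∈ R → tl e ∉ R → Y e = S e := by
    intro e h1 h2
    by_contra hne0
    apply h2
    have h3 : Relation.ReflTransGen (stp tl hd S Y ∅) a (hd e) := by simpa [R] using h1
    have h4 : stp tl hd S Y ∅ (hd e) (tl e) :=
      ⟨by simp, by simp, e, Or.inr ⟨rfl, rfl, by have := hY e; omega⟩⟩
    simpa [R] using h3.tail h4
  -- the cut value
  let cutv : ℤ := ∑ e, ((if (tl e ∈ R ∧ hd e ∉ R) ∨ (hd e ∈ R ∧ tl e ∉ R) then (S e : ℤ) else 0))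
  have hYcut : ∑ v ∈ R, chg (inc tl hd) S Y v = - cutv := by
    rw [sum_chg_eq, ← Finset.sum_neg_distrib]
    apply Finset.sum_congr rfl
    intro e _
    by_cases h1 : tl e ∈ R <;> by_cases h2 : hd e ∈ R
    · simp [h1, h2]
    · simp [h1, h2, hclos1 e h1 h2]
    · simp [h1, h2, hclos2 e h2 h1]
      ring
    · simp [h1, h2]
  have hXcut : |∑ v ∈ R, chg (inc tl hd) S X v| ≤ cutv := by
    rw [sum_chg_eq]
    refine (Finset.abs_sum_le_sum_abs _ _).trans ?_
    apply Finset.sum_le_sum
    intro e _
    have h3 := hX e
    by_cases h1 : tl e ∈ R <;> by_cases h2 : hd e ∈ R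
    · simp [h1, h2]
    · simp only [h1, h2, if_true, if_false, sub_zero, one_mul, true_and, not_false_eq_true, true_or]
      rw [abs_le]
      constructor <;> omega
    · simp only [h1, h2, if_true, if_false, zero_sub, neg_one_mul, abs_neg, false_and, and_self, or_true, not_false_eq_true, true_and]
      rw [abs_le]
      constructor <;> omega
    · simp [h1, h2]
  have hdiff : 0 < ∑ v ∈ R, (chg (inc tl hd) S Y v - b' v) := by
    have h1 : chg (inc tl hd) S Y a - b' a ≤ ∑ v ∈ R, (chg (inc tl hd) S Y v - b' v) :=
      Finset.single_le_sum (f := fun v => chg (inc tl hd) S Y v - b' v)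
        (fun y hy => by have := hRnonneg y hy; omega) hRa
    omega
  rw [Finset.sum_sub_distrib, hYcut] at hdiff
  have hcutR := hcut R
  have h5 : |∑ v ∈ R, b' v| ≤ cutv := hcutR.trans hXcut
  rw [abs_le] at h5
  omega

end Vale.Agent.Lib.P328Flow
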