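import Vale.Agent.Lib.P328Flow.Levels

set_option linter.unusedSectionVars false
set_option linter.unusedSimpArgs false
set_option linter.unusedVariables false

/-!
Contingency tables with cell capacities: comparison of products of two counts.
-/

namespace Vale.Agent.Lib.P328Flow

open Finset

variable {ι κ : Type*} [Fintype ι] [DecidableEq ι] [Fintype κ] [DecidableEq κ]

/-- Tail of a cell: its row. -/
def tlT (e : ι × κ) : ι ⊕ κ := Sum.inl e.1

/-- Head of a cell: its column. -/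
def hdT (e : ι × κ) : ι ⊕ κ := Sum.inr e.2

theorem sum_inc_inl (X : ι × κ → ℕ) (i : ι) :
    ∑ e, inc (tlT (ι := ι) (κ := κ)) hdT (Sum.inl i) e * (X e : ℤ) = ∑ j, (X (i, j) : ℤ) := by
  rw [Fintype.sum_prod_type, Finset.sum_eq_single i]
  · apply Finset.sum_congr rfl
    intro j _
    simp [inc, tlT, hdT]
  · intro i' _ hi'
    apply Finset.sum_eq_zero
    intro j _
    have : i ≠ i' := fun h => hi' h.symm
    simp [inc, tlT, hdT, this]
  · intro h
    exact absurd (Finset.mem_univ i) h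

theorem sum_inc_inr (X : ι × κ → ℕ) (j : κ) :
    ∑ e, inc (tlT (ι := ι) (κ := κ)) hdT (Sum.inr j) e * (X e : ℤ) = - ∑ i, (X (i, j) : ℤ) := by
  rw [Fintype.sum_prod_type, ← Finset.sum_neg_distrib]
  apply Finset.sum_congr rfl
  intro i _
  rw [Finset.sum_eq_single j]
  · simp [inc, tlT, hdT]
  · intro j' _ hj'
    have : j ≠ j' := fun h => hj' h.symm
    simp [inc, tlT, hdT, this]
  · intro h
    exact absurd (Finset.mem_univ j) h

/-- Tables with capacities, as a set of matrices. -/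
def capTables (U : ι → κ → ℕ) (r : ι → ℕ) (c : κ → ℕ) : Set (ι → κ → ℕ) :=
  {x | (∀ i j, x i j ≤ U i j) ∧ (∀ i, ∑ j, x i j = r i) ∧ ∀ j, ∑ i, x i j = c j}

/-- The margins as a vector on `ι ⊕ κ`. -/
def chgT (r : ι → ℕ) (c : κ → ℕ) : ι ⊕ κ → ℤ :=
  Sum.elim (fun i => (r i : ℤ)) (fun j => - (c j : ℤ))

theorem ncard_capTables (U : ι → κ → ℕ) (r : ι → ℕ) (c : κ → ℕ) :
    (capTables U r c).ncard
      = (lev (inc (tlT (ι := ι) (κ := κ)) hdT) (fun e => U e.1 e.2) (chgT r c)).card := by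
  classical
  rw [← Set.ncard_coe_finset]
  apply Set.ncard_congr (fun x _ => fun e => x e.1 e.2)
  · intro x hx
    obtain ⟨h1, h2, h3⟩ := hx
    rw [Finset.mem_coe, mem_lev]
    refine ⟨fun e => h1 _ _, ?_⟩
    rintro (i | j)
    · rw [sum_inc_inl]
      simp [chgT, ← h2 i]
    · rw [sum_inc_inr]
      simp [chgT, ← h3 j]
  · intro x y _ _ h
    funext i j
    exact congrFun h (i, j)
  · intro X hX
    rw [Finset.mem_coe, mem_lev] at hX
    obtain ⟨h1, h2⟩ := hX
    refine ⟨fun i j => X (i, j), ⟨fun i j => h1 (i, j), fun i => ?_, fun j => ?_⟩, ?_⟩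
    · have := h2 (Sum.inl i)
      rw [sum_inc_inl] at this
      simp only [chgT, Sum.elim_inl] at this
      exact_mod_cast this
    · have := h2 (Sum.inr j)
      rw [sum_inc_inr] at this
      simp only [chgT, Sum.elim_inr, neg_inj] at this
      exact_mod_cast this
    · funext e
      rfl

/-- The comparison theorem for contingency tables with capacities. -/
theorem capTables_mul_le (U : ι → κ → ℕ) (r₁ r₂ r₁' r₂' : ι → ℕ) (c₁ c₂ c₁' c₂' : κ → ℕ)
    (hr : ∀ i, r₁ i + r₂ i = r₁' i + r₂' i) (hc : ∀ j, c₁ j + c₂ j = c₁' j + c₂' j)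
    (hcut : ∀ (I : Finset ι) (J : Finset κ),
      |∑ i ∈ I, ((r₁' i : ℤ) - r₂' i) - ∑ j ∈ J, ((c₁' j : ℤ) - c₂' j)|
        ≤ |∑ i ∈ I, ((r₁ i : ℤ) - r₂ i) - ∑ j ∈ J, ((c₁ j : ℤ) - c₂ j)|) :
    (capTables U r₁ c₁).ncard * (capTables U r₂ c₂).ncard
      ≤ (capTables U r₁' c₁').ncard * (capTables U r₂' c₂').ncard := by
  classical
  simp only [ncard_capTables]
  apply lev_mul_le
  · rintro (i | j)
    · simp only [chgT, Sum.elim_inl]
      have := hr i
      omega
    · simp only [chgT, Sum.elim_inr]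
      have := hc j
      omega
  · intro R
    have key : ∀ (r r' : ι → ℕ) (c c' : κ → ℕ),
        ∑ v ∈ R, (chgT r c v - chgT r' c' v)
          = ∑ i ∈ univ.filter (fun i => (Sum.inl i : ι ⊕ κ) ∈ R), ((r i : ℤ) - r' i)
            - ∑ j ∈ univ.filter (fun j => (Sum.inr j : ι ⊕ κ) ∈ R), ((c j : ℤ) - c' j) := by
      intro r r' c c'
      have h1 : ∑ v ∈ R, (chgT r c v - chgT r' c' v)
          = ∑ v, if v ∈ R then (chgT r c v - chgT r' c' v) else 0 := by
        rw [Finset.sum_ite_mem, Finset.univ_inter]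
      rw [h1, Fintype.sum_sum_type, Finset.sum_filter, Finset.sum_filter, sub_eq_add_neg,
        ← Finset.sum_neg_distrib]
      have h2 : ∀ i, (if (Sum.inl i : ι ⊕ κ) ∈ R then chgT r c (Sum.inl i) - chgT r' c' (Sum.inl i) else 0)
          = if (Sum.inl i : ι ⊕ κ) ∈ R then (r i : ℤ) - r' i else 0 := by
        intro i
        simp [chgT]
      have h3 : ∀ j, (if (Sum.inr j : ι ⊕ κ) ∈ R then chgT r c (Sum.inr j) - chgT r' c' (Sum.inr j) else 0)
          = - if (Sum.inr j : ι ⊕ κ) ∈ R then (c j : ℤ) - c' j else 0 := by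
        intro j
        by_cases h : (Sum.inr j : ι ⊕ κ) ∈ R
        · simp only [h, if_true, chgT, Sum.elim_inr]
          ring
        · simp [h]
      simp only [h2, h3]
    rw [key, key]
    exact hcut _ _

end Vale.Agent.Lib.P328Flow
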